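import Crest.Agent.Helper91.S0010.FT
import Crest.Agent.Helper31.S0010.Deriv

/-!
# S0010, work package FT1: field theory in helper31's names (`pPow`, `pAdj`, `PIndep`)

(helper91)  For `k : Subfield K` algebraically closed, `K` finitely generated over `k` of
transcendence degree `≥ 2`, `CharP K p`:

* `pPow_infinite`: `K^p` is infinite;
* `exists_pIndep`: there is a `p`-independent pair;
* `exists_not_mem_pPow`: `K` is not perfect;
* `exists_partner`: every `x ∉ K^p` has a partner `y` with `PIndep p x y`;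
* `exists_not_mem_pAdj`: `K^p(x) ≠ K` for every `x`;
* `exists_common_partner`: for all `x x'` there is `y ∉ K^p(x) ∪ K^p(x')`.
-/

set_option autoImplicit false

namespace Crest.Agent.Helper91.S0010

open Crest.Agent.Helper31.S0010

variable {p : ℕ} [Fact p.Prime] {K : Type*} [Field K] [CharP K p]

/-- `(G0)` in helper31's names: `K^p` is infinite. -/
theorem pPow_infinite (k : Subfield K) [IsAlgClosed k] : (pPow (L := K) p : Set K).Infinite := by
  have h := G0 (p := p) k
  have : (pPow (L := K) p : Set K) = {a : K | ∃ b, b ^ p = a} := by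
    ext a
    exact mem_pPow p
  rw [this]
  exact h

/-- `(G1)` in helper31's names: a `p`-independent pair exists. -/
theorem exists_pIndep (k : Subfield K) [IsAlgClosed k]
    (hK : ∃ s : Finset K, Subfield.closure ((k : Set K) ∪ (s : Set K)) = ⊤)
    (hK2 : 2 ≤ Algebra.trdeg k K) : ∃ x y : K, PIndep p x y := by
  obtain ⟨x, y, hx, hy⟩ := G1 (p := p) k hK hK2
  exact ⟨x, y, fun h => hx ((mem_pPow p).1 h), fun h => hy ((mem_pAdj_iff p x y).1 h)⟩

/-- `K` is not perfect. -/
theorem exists_not_mem_pPow (k : Subfield K) [IsAlgClosed k]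
    (hK : ∃ s : Finset K, Subfield.closure ((k : Set K) ∪ (s : Set K)) = ⊤)
    (hK2 : 2 ≤ Algebra.trdeg k K) : ∃ x : K, x ∉ pPow (L := K) p := by
  obtain ⟨x, y, h⟩ := exists_pIndep (p := p) k hK hK2
  exact ⟨x, h.1⟩

/-- Every `x ∉ K^p` has a partner. -/
theorem exists_partner (k : Subfield K) [IsAlgClosed k]
    (hK : ∃ s : Finset K, Subfield.closure ((k : Set K) ∪ (s : Set K)) = ⊤)
    (hK2 : 2 ≤ Algebra.trdeg k K) {x : K} (hx : x ∉ pPow (L := K) p) :
    ∃ y : K, PIndep p x y := by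
  obtain ⟨x₀, y₀, h0⟩ := exists_pIndep (p := p) k hK hK2
  by_contra hcon
  have hall : ∀ y, y ∈ pAdj p x := fun y => by
    by_contra hy
    exact hcon ⟨y, hx, hy⟩
  have h1 : x ∈ pAdj p x₀ := exchange p (pPow p) (pow_mem_pPow p) (hall x₀) h0.1
  have h2 : pAdj p x ≤ pAdj p x₀ := adj_le (pPow_le_pAdj p x₀) h1
  exact h0.2 (h2 (hall y₀))

/-- `K^p(x) ≠ K` for every `x`. -/
theorem exists_not_mem_pAdj (k : Subfield K) [IsAlgClosed k]
    (hK : ∃ s : Finset K, Subfield.closure ((k : Set K) ∪ (s : Set K)) = ⊤)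
    (hK2 : 2 ≤ Algebra.trdeg k K) (x : K) : ∃ y : K, y ∉ pAdj p x := by
  by_cases hx : x ∈ pPow (L := K) p
  · obtain ⟨z, hz⟩ := exists_not_mem_pPow (p := p) k hK hK2
    refine ⟨z, fun h => hz ?_⟩
    have : pAdj p x = pPow (L := K) p := adj_eq_self hx
    rwa [this] at h
  · obtain ⟨y, hy⟩ := exists_partner (p := p) k hK hK2 hx
    exact ⟨y, hy.2⟩

/-- `K` is not the union of two subfields `K^p(x)`, `K^p(x')`. -/
theorem exists_common_partner (k : Subfield K) [IsAlgClosed k]
    (hK : ∃ s : Finset K, Subfield.closure ((k : Set K) ∪ (s : Set K)) = ⊤)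
    (hK2 : 2 ≤ Algebra.trdeg k K) (x x' : K) :
    ∃ y : K, y ∉ pAdj p x ∧ y ∉ pAdj p x' := by
  obtain ⟨a, ha⟩ := exists_not_mem_pAdj (p := p) k hK hK2 x
  obtain ⟨b, hb⟩ := exists_not_mem_pAdj (p := p) k hK hK2 x'
  by_cases hab : a ∈ pAdj p x'
  · by_cases hba : b ∈ pAdj p x
    · refine ⟨a + b, fun h => ha ?_, fun h => hb ?_⟩
      · have := sub_mem h hba
        simpa using this
      · have := sub_mem h hab
        simpa using this
    · exact ⟨b, hba, hb⟩
  · exact ⟨a, ha, hab⟩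

end Crest.Agent.Helper91.S0010
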