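import Crest.Agent.Helper88.S0010.Lift
import Crest.Agent.Helper71.S0010.LLfRef

/-!
# S0010, joint J1 (insurance copy, helper91): the line lemma in `lift Θ`-form

From helper88's representative map `lift Θ` (T1–T4, S1, S2), helper71's pure-field line lemma
`lineLemma` and `K^p` infinite:

for `f g ≠ 0` with `PIndep p (lift Θ f) (lift Θ g)` there are `0 < m < p`,
`P ∈ L^p(lift Θ f) \ L^p`, `Q ∈ L^p(lift Θ g) \ L^p` and `lam : K → L` with `lam 0 = 0`,
`lam 1 = 1`, `lam (K^p) ⊆ L^p`, injective on `K^p`, such that for all `c ∈ K^p`, up to nonzero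
`p`-th power factors, `lift Θ (f + c) = (P + lam c)^m`, `lift Θ (g - c) = (Q - lam c)^m`,
`lift Θ (f + g) = (P + Q)^m`.

* `lineTh`      : relations written out as `∃ e ∈ pPow p, e ≠ 0 ∧ a = e * b`;
* `lineTh_prel` : the same with helper88's `PRel p a b` (`∃ e ≠ 0, a = e ^ p * b`).
-/

set_option autoImplicit false

open Crest.NumberTheoryR.MilnorK

namespace Crest.Agent.Helper91.S0010.J1

open Crest.Agent.Helper31.S0010 Crest.Agent.Helper88.S0010

variable {p : ℕ} [Fact p.Prime]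

/-- `a / b ∈ F^p` with `a, b ≠ 0` gives the explicit relation `a = e * b`. -/
theorem rel_of_div_mem {F : Type*} [Field F] [CharP F p] {a b : F} (hb : b ≠ 0) (ha : a ≠ 0)
    (h : a / b ∈ pPow (L := F) p) : ∃ e ∈ pPow (L := F) p, e ≠ 0 ∧ a = e * b :=
  ⟨a / b, h, div_ne_zero ha hb, by field_simp⟩

/-- If `f ∉ F^p`, `c, c' ∈ F^p` and `(f + c) / (f + c') ∈ F^p` then `c = c'`. -/
theorem eq_of_div_mem {F : Type*} [Field F] [CharP F p] {f c c' : F}
    (hf : f ∉ pPow (L := F) p) (hc : c ∈ pPow (L := F) p) (hc' : c' ∈ pPow (L := F) p)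
    (h : (f + c) / (f + c') ∈ pPow (L := F) p) : c = c' := by
  have hfc' : f + c' ≠ 0 := by
    intro h0
    apply hf
    have : f = -c' := by linear_combination h0
    rw [this]; exact neg_mem hc'
  have h1 : f + c = (f + c) / (f + c') * (f + c') := by field_simp
  by_cases he1 : (f + c) / (f + c') = 1
  · rw [he1, one_mul] at h1; exact add_left_cancel h1
  · exfalso
    apply hf
    have hne : 1 - (f + c) / (f + c') ≠ 0 := sub_ne_zero.2 (Ne.symm he1)
    have h2 : f = ((f + c) / (f + c') * c' - c) / (1 - (f + c) / (f + c')) := by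
      rw [eq_div_iff hne]
      linear_combination h1
    rw [h2]
    exact div_mem (sub_mem (mul_mem h hc') hc) (sub_mem (one_mem _) h)

variable {K L : Type*} [Field K] [Field L] [CharP K p] [CharP L p]

/-- **Joint J1**: the line lemma for the representative map `lift Θ`. -/
theorem lineTh (Θ : KOne K p ≃ₗ[ZMod p] KOne L p) (hΘ : IsCompatible Θ)
    (hinf : (pPow (L := K) p : Set K).Infinite) {f g : K} (hf : f ≠ 0) (hg : g ≠ 0)
    (hfg : PIndep p (lift Θ f) (lift Θ g)) :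
    ∃ m : ℕ, 0 < m ∧ m < p ∧ ∃ (P Q : L) (lam : K → L),
      P ∈ pAdj p (lift Θ f) ∧ P ∉ pPow (L := L) p ∧
      Q ∈ pAdj p (lift Θ g) ∧ Q ∉ pPow (L := L) p ∧
      lam 0 = 0 ∧ lam 1 = 1 ∧ (∀ c ∈ pPow (L := K) p, lam c ∈ pPow (L := L) p) ∧
      Set.InjOn lam (pPow (L := K) p : Set K) ∧
      ∀ c ∈ pPow (L := K) p,
        (∃ e ∈ pPow (L := L) p, e ≠ 0 ∧ lift Θ (f + c) = e * (P + lam c) ^ m) ∧
        (∃ e ∈ pPow (L := L) p, e ≠ 0 ∧ lift Θ (g - c) = e * (Q - lam c) ^ m) ∧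
        (∃ e ∈ pPow (L := L) p, e ≠ 0 ∧ lift Θ (f + g) = e * (P + Q) ^ m) := by
  classical
  have hfK : f ∉ pPow (L := K) p := fun h => hfg.1 ((lift_mem_pPow_iff Θ hf).2 h)
  have hgL : lift Θ g ∉ pPow (L := L) p := (PIndep.symm p hfg).1
  have hgK : g ∉ pPow (L := K) p := fun h => hgL ((lift_mem_pPow_iff Θ hg).2 h)
  have hinst : Infinite ↥(pPow (L := K) p) := hinf.to_subtype
  have hfc : ∀ c : ↥(pPow (L := K) p), f + (c : K) ∉ pPow (L := K) p := fun c h =>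
    hfK (by simpa using sub_mem h c.2)
  have hgc : ∀ c : ↥(pPow (L := K) p), g - (c : K) ∉ pPow (L := K) p := fun c h =>
    hgK (by simpa using add_mem h c.2)
  have hfc0 : ∀ c : ↥(pPow (L := K) p), f + (c : K) ≠ 0 := fun c h => hfc c (h ▸ zero_mem _)
  have hgc0 : ∀ c : ↥(pPow (L := K) p), g - (c : K) ≠ 0 := fun c h => hgc c (h ▸ zero_mem _)
  have hφ : ∀ c : ↥(pPow (L := K) p), lift Θ (f + (c : K)) ∈ pAdj p (lift Θ f) := fun c =>
    lift_add_mem_pAdj Θ hΘ hfK c.2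
  have hφ' : ∀ c : ↥(pPow (L := K) p), lift Θ (f + (c : K)) ∉ pPow (L := L) p := fun c =>
    lift_notMem_pPow Θ (hfc c)
  have hγ : ∀ c : ↥(pPow (L := K) p), lift Θ (g - (c : K)) ∈ pAdj p (lift Θ g) := fun c => by
    have := lift_add_mem_pAdj Θ hΘ hgK (neg_mem c.2)
    rw [← sub_eq_add_neg] at this
    exact this
  have hγ' : ∀ c : ↥(pPow (L := K) p), lift Θ (g - (c : K)) ∉ pPow (L := L) p := fun c =>
    lift_notMem_pPow Θ (hgc c)
  have hfg0 : f + g ≠ 0 := by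
    intro h0
    apply hfg.2
    have hg' : g = -f := by linear_combination h0
    have hrel : PRel p g f :=
      prel_iff_pPow.2 ⟨-1, neg_mem (one_mem _), neg_ne_zero.2 one_ne_zero, by rw [hg']; ring⟩
    exact ((lift_prel Θ hg hrel).mem_pAdj_iff _).2 (self_mem_pAdj p _)
  have hh : lift Θ (f + g) ≠ 0 := lift_ne_zero Θ hfg0
  have hJ : ∀ c : ↥(pPow (L := K) p), lift Θ (f + g) / lift Θ (f + (c : K))
      ∈ pAdj p (lift Θ (g - (c : K)) / lift Θ (f + (c : K))) := by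
    intro c
    have hba : (g - (c : K)) / (f + (c : K)) ∉ pPow (L := K) p := by
      intro hmem
      apply hfg.2
      have hrel : PRel p (g - (c : K)) (f + (c : K)) :=
        prel_iff_pPow.2 (rel_of_div_mem (hfc0 c) (hgc0 c) hmem)
      have h1 : lift Θ (g - (c : K)) ∈ pAdj p (lift Θ f) :=
        ((lift_prel Θ (hgc0 c) hrel).mem_pAdj_iff _).2 (hφ c)
      have h2 : lift Θ g ∈ pAdj p (lift Θ (g - (c : K))) :=
        exchange p (pPow p) (pow_mem_pPow p) (hγ c) (hγ' c)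
      exact adj_le (pPow_le_pAdj p _) h1 h2
    have := lift_div_mem_pAdj Θ hΘ (hfc0 c) hba
    have e : f + (c : K) + (g - (c : K)) = f + g := by ring
    rw [e] at this
    exact this
  have hφi : ∀ c c' : ↥(pPow (L := K) p),
      lift Θ (f + (c : K)) / lift Θ (f + (c' : K)) ∈ pPow (L := L) p → c = c' := by
    intro c c' hmem
    have hrel : PRel p (lift Θ (f + (c : K))) (lift Θ (f + (c' : K))) :=
      prel_iff_pPow.2 (rel_of_div_mem (lift_ne_zero Θ (hfc0 c')) (lift_ne_zero Θ (hfc0 c)) hmem)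
    obtain ⟨e, he, he0, heq⟩ := prel_iff_pPow.1 ((lift_prel_iff Θ (hfc0 c) (hfc0 c')).1 hrel)
    apply Subtype.ext
    apply eq_of_div_mem hfK c.2 c'.2
    rw [heq, mul_div_assoc, div_self (hfc0 c'), mul_one]
    exact he
  have hγi : ∀ c c' : ↥(pPow (L := K) p),
      lift Θ (g - (c : K)) / lift Θ (g - (c' : K)) ∈ pPow (L := L) p → c = c' := by
    intro c c' hmem
    have hrel : PRel p (lift Θ (g - (c : K))) (lift Θ (g - (c' : K))) :=
      prel_iff_pPow.2 (rel_of_div_mem (lift_ne_zero Θ (hgc0 c')) (lift_ne_zero Θ (hgc0 c)) hmem)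
    obtain ⟨e, he, he0, heq⟩ := prel_iff_pPow.1 ((lift_prel_iff Θ (hgc0 c) (hgc0 c')).1 hrel)
    apply Subtype.ext
    have hneg : -(c : K) = -(c' : K) := by
      apply eq_of_div_mem hgK (neg_mem c.2) (neg_mem c'.2)
      rw [← sub_eq_add_neg, ← sub_eq_add_neg, heq, mul_div_assoc, div_self (hgc0 c'), mul_one]
      exact he
    exact neg_injective hneg
  obtain ⟨m, hm0, hmp, P, Q, lam, hP, hPC, hQ, hQC, hl0, hl1, hlam, hinj, hφm, hγm, hPQ, hhm⟩ :=
    Crest.Agent.Helper71.S0010.lineLemma (0 : ↥(pPow (L := K) p)) (1 : ↥(pPow (L := K) p))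
      one_ne_zero hfg (fun c => lift Θ (f + (c : K))) (fun c => lift Θ (g - (c : K)))
      (lift Θ (f + g)) hh hφ hφ' hγ hγ' hJ hφi hγi
  let lam' : K → L := fun c => if hc : c ∈ pPow (L := K) p then lam ⟨c, hc⟩ else 0
  have hlam' : ∀ (c : K) (hc : c ∈ pPow (L := K) p), lam' c = lam ⟨c, hc⟩ := fun c hc =>
    dif_pos hc
  refine ⟨m, hm0, hmp, P, Q, lam', hP, hPC, hQ, hQC, ?_, ?_, ?_, ?_, ?_⟩
  · rw [hlam' 0 (zero_mem _)]; exact hl0
  · rw [hlam' 1 (one_mem _)]; exact hl1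
  · intro c hc
    rw [hlam' c hc]; exact hlam _
  · intro c hc c' hc' h
    rw [hlam' c hc, hlam' c' hc'] at h
    exact congrArg Subtype.val (hinj h)
  · intro c hc
    rw [hlam' c hc]
    refine ⟨?_, ?_, ?_⟩
    · exact rel_of_div_mem (pow_ne_zero m (hφm ⟨c, hc⟩).1) (lift_ne_zero Θ (hfc0 ⟨c, hc⟩))
        (hφm ⟨c, hc⟩).2
    · exact rel_of_div_mem (pow_ne_zero m (hγm ⟨c, hc⟩).1) (lift_ne_zero Θ (hgc0 ⟨c, hc⟩))
        (hγm ⟨c, hc⟩).2
    · exact rel_of_div_mem (pow_ne_zero m hPQ) hh hhm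

/-- **Joint J1** with helper88's `PRel`. -/
theorem lineTh_prel (Θ : KOne K p ≃ₗ[ZMod p] KOne L p) (hΘ : IsCompatible Θ)
    (hinf : (pPow (L := K) p : Set K).Infinite) {f g : K} (hf : f ≠ 0) (hg : g ≠ 0)
    (hfg : PIndep p (lift Θ f) (lift Θ g)) :
    ∃ m : ℕ, 0 < m ∧ m < p ∧ ∃ (P Q : L) (lam : K → L),
      P ∈ pAdj p (lift Θ f) ∧ P ∉ pPow (L := L) p ∧
      Q ∈ pAdj p (lift Θ g) ∧ Q ∉ pPow (L := L) p ∧
      lam 0 = 0 ∧ lam 1 = 1 ∧ (∀ c ∈ pPow (L := K) p, lam c ∈ pPow (L := L) p) ∧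
      Set.InjOn lam (pPow (L := K) p : Set K) ∧
      ∀ c ∈ pPow (L := K) p,
        PRel p (lift Θ (f + c)) ((P + lam c) ^ m) ∧
        PRel p (lift Θ (g - c)) ((Q - lam c) ^ m) ∧
        PRel p (lift Θ (f + g)) ((P + Q) ^ m) := by
  obtain ⟨m, hm0, hmp, P, Q, lam, hP, hPC, hQ, hQC, hl0, hl1, hlam, hinj, hrel⟩ :=
    lineTh Θ hΘ hinf hf hg hfg
  exact ⟨m, hm0, hmp, P, Q, lam, hP, hPC, hQ, hQC, hl0, hl1, hlam, hinj, fun c hc =>
    ⟨prel_iff_pPow.2 (hrel c hc).1, prel_iff_pPow.2 (hrel c hc).2.1,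
      prel_iff_pPow.2 (hrel c hc).2.2⟩⟩

end Crest.Agent.Helper91.S0010.J1
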