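import Mathlib

/-!
# S0010, work package FT: field theory of finitely generated fields in characteristic `p`

(helper91)  Pure Mathlib.  Main results (for `k : Subfield K` algebraically closed, `K` finitely
generated over `k` of transcendence degree `≥ 2`, `CharP K p`):

* `G0`: the set of `p`-th powers of `K` is infinite;
* `G1`: there are `x y : K` with `x ∉ K^p` and `y ∉ K^p(x)`;
* `G2`: `a ∈ k ↔ ∀ n, ∃ b, b ^ p ^ n = a`.
-/

set_option autoImplicit false

namespace Crest.Agent.Helper91.S0010

open MvPolynomial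

section Poly

variable {p : ℕ} {k : Type*} [Field k] [CharP k p] {ι : Type*}

lemma pderiv_pow_p (j : ι) (q : MvPolynomial ι k) : pderiv j (q ^ p) = 0 := by
  rw [Derivation.leibniz_pow]
  simp [CharP.cast_eq_zero]

/-- Polynomial key fact: `s^p * X_j = ∑ q_e^p * m_e` with `∂_j m_e = 0` forces `s = 0`. -/
lemma poly_key [Fact p.Prime] {n : ℕ} (j : ι) (s : MvPolynomial ι k)
    (q m : Fin n → MvPolynomial ι k) (hm : ∀ e, pderiv j (m e) = 0)
    (h : s ^ p * X j = ∑ e : Fin n, q e ^ p * m e) : s = 0 := by
  have h1 := congrArg (pderiv j) h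
  rw [Derivation.leibniz, map_sum] at h1
  simp [Derivation.leibniz, hm] at h1
  exact h1.1

/-- Fraction field version of `poly_key`. -/
lemma frac_key [Fact p.Prime] {Q : Type*} [Field Q] [Algebra (MvPolynomial ι k) Q]
    [IsFractionRing (MvPolynomial ι k) Q] {n : ℕ} (j : ι) (u : Q) (c : Fin n → Q)
    (m : Fin n → MvPolynomial ι k) (hm : ∀ e, pderiv j (m e) = 0)
    (h : u ^ p * algebraMap (MvPolynomial ι k) Q (X j)
      = ∑ e : Fin n, c e ^ p * algebraMap (MvPolynomial ι k) Q (m e)) : u = 0 := by
  classical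
  obtain ⟨D, hD⟩ := IsLocalization.exist_integer_multiples_of_finset
    (nonZeroDivisors (MvPolynomial ι k)) (insert u (Finset.univ.image c))
  have hD0 : algebraMap (MvPolynomial ι k) Q (D : MvPolynomial ι k) ≠ 0 := by
    simp
  obtain ⟨U, hU⟩ := hD u (Finset.mem_insert_self _ _)
  have hC : ∀ e, ∃ C : MvPolynomial ι k, algebraMap _ Q C = (D : MvPolynomial ι k) • c e :=
    fun e => hD (c e) (Finset.mem_insert_of_mem (Finset.mem_image_of_mem c (Finset.mem_univ e)))
  choose C hC using hC
  have key : U ^ p * X j = ∑ e : Fin n, C e ^ p * m e := by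
    apply IsFractionRing.injective (MvPolynomial ι k) Q
    simp only [map_mul, map_pow, map_sum, hU, hC, Algebra.smul_def]
    rw [mul_pow, mul_assoc, h, Finset.mul_sum]
    refine Finset.sum_congr rfl fun e _ => ?_
    ring
  have hU0 := poly_key j U C m hm key
  rw [hU0, map_zero, Algebra.smul_def] at hU
  exact (mul_eq_zero.mp hU.symm).resolve_left hD0

end Poly

section Adjoin

variable {p : ℕ} [Fact p.Prime] {k K : Type*} [Field k] [Field K] [Algebra k K] [CharP k p]
  {ι : Type*} {t : ι → K}

lemma aeval_mem_adjoin (t : ι → K) (q : MvPolynomial ι k) :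
    aeval t q ∈ IntermediateField.adjoin k (Set.range t) :=
  (IntermediateField.mem_adjoin_range_iff k t _).2 ⟨q, 1, by simp⟩

/-- Key fact in the purely transcendental field `k(t)`: if `u, c_e ∈ k(t)` and
`u^p * t_j = ∑ c_e^p * m_e(t)` with `∂_j m_e = 0`, then `u = 0`. -/
lemma adjoin_key (ht : AlgebraicIndependent k t) {n : ℕ} (j : ι) (u : K)
    (hu : u ∈ IntermediateField.adjoin k (Set.range t)) (c : Fin n → K)
    (hc : ∀ e, c e ∈ IntermediateField.adjoin k (Set.range t))
    (m : Fin n → MvPolynomial ι k) (hm : ∀ e, pderiv j (m e) = 0)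
    (h : u ^ p * t j = ∑ e : Fin n, c e ^ p * aeval t (m e)) : u = 0 := by
  set φ := ht.aevalEquivField.symm with hφ
  have h1 : ∀ (q : MvPolynomial ι k) (hq : aeval t q ∈ IntermediateField.adjoin k (Set.range t)),
      φ ⟨aeval t q, hq⟩ = algebraMap _ _ q := by
    intro q hq
    rw [hφ, AlgEquiv.symm_apply_eq]
    ext
    simp
  have h2 : (⟨u, hu⟩ : IntermediateField.adjoin k (Set.range t)) ^ p
        * ⟨aeval t (X j), aeval_mem_adjoin t _⟩
      = ∑ e : Fin n, (⟨c e, hc e⟩ : IntermediateField.adjoin k (Set.range t)) ^ p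
        * ⟨aeval t (m e), aeval_mem_adjoin t _⟩ := by
    ext
    simp [h]
  have h3 := congrArg φ h2
  simp only [map_mul, map_pow, map_sum, h1] at h3
  have h4 := frac_key j (φ ⟨u, hu⟩) (fun e => φ ⟨c e, hc e⟩) m hm h3
  have h5 : (⟨u, hu⟩ : IntermediateField.adjoin k (Set.range t)) = 0 := by
    simpa using h4
  exact congrArg Subtype.val h5

end Adjoin

section Main

variable {p : ℕ} [Fact p.Prime] {K : Type*} [Field K] [CharP K p] (k : Subfield K)

lemma essFiniteType_of_closure
    (hK : ∃ s : Finset K, Subfield.closure ((k : Set K) ∪ (s : Set K)) = ⊤) :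
    Algebra.EssFiniteType k K := by
  obtain ⟨s, hs⟩ := hK
  rw [← IntermediateField.fg_top_iff]
  refine ⟨s, ?_⟩
  apply IntermediateField.toSubfield_injective
  rw [IntermediateField.adjoin_toSubfield, IntermediateField.top_toSubfield, ← hs]
  congr 2
  ext x
  constructor
  · rintro ⟨a, rfl⟩; exact a.2
  · intro hx; exact ⟨⟨x, hx⟩, rfl⟩

/-- `G0`: the set of `p`-th powers is infinite. -/
theorem G0 [IsAlgClosed k] : Set.Infinite {a : K | ∃ b, b ^ p = a} := by
  have : Infinite K := Infinite.of_injective (algebraMap k K) (algebraMap k K).injective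
  have : {a : K | ∃ b, b ^ p = a} = Set.range (frobenius K p) := by
    ext a; simp [frobenius_def]
  rw [this]
  exact Set.infinite_range_of_injective (frobenius_inj K p)

/-- Separable descent: if `K / k(t)` is finite separable, a relation
`t_j = ∑ a_e^p * m_e(t)` with `a_e ∈ K` and `∂_j m_e = 0` is impossible. -/
lemma sep_key {k' : Type*} [Field k'] [Algebra k' K] [CharP k' p] {ι : Type*} {t : ι → K}
    (ht : AlgebraicIndependent k' t)
    [Algebra.IsSeparable (IntermediateField.adjoin k' (Set.range t)) K]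
    [Module.Finite (IntermediateField.adjoin k' (Set.range t)) K]
    {n : ℕ} (j : ι) (a : Fin n → K) (m : Fin n → MvPolynomial ι k')
    (hm : ∀ e, pderiv j (m e) = 0) :
    t j ≠ ∑ e : Fin n, a e ^ p * aeval t (m e) := by
  intro h
  set M := IntermediateField.adjoin k' (Set.range t) with hM
  have : ExpChar M p := ExpChar.prime (Fact.out : p.Prime)
  let b := Module.finBasis M K
  let b' := b.mapPowExpCharPowOfIsSeparable p 1
  have hb' : ∀ r, b' r = b r ^ p := by
    intro r
    simp [b', Module.Basis.mapPowExpCharPowOfIsSeparable]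
  -- expansion of a p-th power in the basis b'
  have hexp : ∀ w : K, w ^ p = ∑ r, (b.repr w r) ^ p • b' r := by
    intro w
    conv_lhs => rw [← b.sum_repr w]
    rw [sum_pow_char]
    refine Finset.sum_congr rfl fun r _ => ?_
    rw [hb', Algebra.smul_def, Algebra.smul_def, mul_pow, map_pow]
  have htj : t j ∈ M := IntermediateField.subset_adjoin _ _ ⟨j, rfl⟩
  -- coefficient identity
  have hcoef : ∑ r, ((⟨t j, htj⟩ : M) * (b.repr 1 r) ^ p
      - ∑ e : Fin n, (b.repr (a e) r) ^ p * ⟨aeval t (m e), aeval_mem_adjoin t _⟩) • b' r = 0 := by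
    have e1 : t j = ∑ r, ((⟨t j, htj⟩ : M) * (b.repr 1 r) ^ p) • b' r := by
      have := hexp 1
      rw [one_pow] at this
      conv_lhs => rw [← mul_one (t j), this, Finset.mul_sum]
      refine Finset.sum_congr rfl fun r _ => ?_
      simp [Algebra.smul_def, mul_assoc]
    have e2 : ∑ e : Fin n, a e ^ p * aeval t (m e)
        = ∑ r, (∑ e : Fin n, (b.repr (a e) r) ^ p * (⟨aeval t (m e), aeval_mem_adjoin t _⟩ : M))
          • b' r := by
      simp_rw [Finset.sum_smul]
      rw [Finset.sum_comm]
      refine Finset.sum_congr rfl fun e _ => ?_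
      rw [hexp (a e), Finset.sum_mul]
      refine Finset.sum_congr rfl fun r _ => ?_
      simp [Algebra.smul_def]
      ring
    simp_rw [sub_smul]
    rw [Finset.sum_sub_distrib, ← e1, ← e2, h, sub_self]
  have hli := Fintype.linearIndependent_iff.mp b'.linearIndependent _ hcoef
  have hu : ∀ r, b.repr 1 r = 0 := by
    intro r
    have h1 := sub_eq_zero.mp (hli r)
    have h2 := congrArg (Subtype.val : M → K) h1
    have h3 : ((b.repr 1 r : M) : K) ^ p * t j
        = ∑ e : Fin n, ((b.repr (a e) r : M) : K) ^ p * aeval t (m e) := by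
      rw [mul_comm]
      simpa using h2
    have h4 := adjoin_key (p := p) ht j ((b.repr 1 r : M) : K) (b.repr 1 r).2
      (fun e => ((b.repr (a e) r : M) : K)) (fun e => (b.repr (a e) r).2) m hm h3
    exact Subtype.ext h4
  have : (1 : K) = 0 := by
    rw [← b.sum_repr 1]
    simp [hu]
  exact one_ne_zero this

/-- `G1`: there is a `p`-independent pair in `K`. -/
theorem G1 [IsAlgClosed k]
    (hK : ∃ s : Finset K, Subfield.closure ((k : Set K) ∪ (s : Set K)) = ⊤)
    (hK2 : 2 ≤ Algebra.trdeg k K) :
    ∃ x y : K, (¬ ∃ b : K, b ^ p = x) ∧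
      ¬ ∃ a : Fin p → K, y = ∑ i : Fin p, a i ^ p * x ^ (i : ℕ) := by
  classical
  have hess := essFiniteType_of_closure k hK
  obtain ⟨s, hs, hsep⟩ := exists_isTranscendenceBasis_and_isSeparable_of_perfectField k K
  have hcard : 2 ≤ s.card := by
    have h1 := hs.cardinalMk_eq_trdeg
    rw [← h1] at hK2
    simpa using hK2
  obtain ⟨x, hx, y, hy, hxy⟩ := Finset.one_lt_card.mp hcard
  have hr : Set.range ((↑) : s → K) = (s : Set K) := by
    ext z; simp
  have ht : AlgebraicIndependent k ((↑) : s → K) := hs.1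
  have hsep' : Algebra.IsSeparable (IntermediateField.adjoin k (Set.range ((↑) : s → K))) K := by
    rw [hr]; exact hsep
  have hess' : Algebra.EssFiniteType (IntermediateField.adjoin k (Set.range ((↑) : s → K))) K :=
    Algebra.EssFiniteType.of_comp k _ K
  have hfin : Module.Finite (IntermediateField.adjoin k (Set.range ((↑) : s → K))) K :=
    Algebra.finite_of_essFiniteType_of_isAlgebraic
  refine ⟨x, y, ?_, ?_⟩
  · rintro ⟨b, hb⟩
    refine sep_key (p := p) ht (⟨x, hx⟩ : s) (fun _ : Fin 1 => b) (fun _ => 1) (fun _ => by simp) ?_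
    simp [hb]
  · rintro ⟨a, ha⟩
    refine sep_key (p := p) ht (⟨y, hy⟩ : s) a (fun e => X (⟨x, hx⟩ : s) ^ (e : ℕ))
      (fun e => ?_) ?_
    · rw [Derivation.leibniz_pow, pderiv_X_of_ne (by simpa using hxy)]
      simp
    · simpa using ha

/-- `G2`: the constants are exactly the elements having `p^n`-th roots for all `n`. -/
theorem G2 [IsAlgClosed k]
    (hK : ∃ s : Finset K, Subfield.closure ((k : Set K) ∪ (s : Set K)) = ⊤) (a : K) :
    (∀ n : ℕ, ∃ b : K, b ^ p ^ n = a) ↔ a ∈ k := by
  constructor
  · intro h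
    by_contra hak
    have hess := essFiniteType_of_closure k hK
    have htr : Transcendental k a := by
      intro halg
      have hint : IsIntegral k a := halg.isIntegral
      have hdeg := IsAlgClosed.degree_eq_one_of_irreducible k (minpoly.irreducible hint)
      obtain ⟨c, hc⟩ := minpoly.mem_range_of_degree_eq_one k a hdeg
      exact hak (hc ▸ c.2)
    have hind : AlgebraicIndepOn k id ({a} : Set K) :=
      (algebraicIndependent_singleton_iff (⟨a, rfl⟩ : ({a} : Set K))).mpr htr
    obtain ⟨B, haB, hB⟩ := exists_isTranscendenceBasis_superset hind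
    have haB' : a ∈ B := haB rfl
    have ht : AlgebraicIndependent k ((↑) : B → K) := hB.1
    have halg := hB.isAlgebraic_field
    have hess' : Algebra.EssFiniteType (IntermediateField.adjoin k (Set.range ((↑) : B → K))) K :=
      Algebra.EssFiniteType.of_comp k _ K
    have hfin : Module.Finite (IntermediateField.adjoin k (Set.range ((↑) : B → K))) K :=
      Algebra.finite_of_essFiniteType_of_isAlgebraic
    set M := IntermediateField.adjoin k (Set.range ((↑) : B → K)) with hM
    have : ExpChar M p := ExpChar.prime (Fact.out : p.Prime)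
    set d := Module.finrank M K with hd
    obtain ⟨b, hb⟩ := h d
    have haM : a ∈ M := IntermediateField.subset_adjoin _ _ ⟨⟨a, haB'⟩, rfl⟩
    have hsd : (minpoly M b).natSepDegree = 1 :=
      (minpoly.natSepDegree_eq_one_iff_pow_mem p).2 ⟨d, ⟨⟨a, haM⟩, hb.symm⟩⟩
    obtain ⟨e, c, hmin⟩ := (minpoly.natSepDegree_eq_one_iff_eq_X_pow_sub_C p).1 hsd
    have hdeg : p ^ e ≤ d := by
      have := minpoly.natDegree_le (A := M) b
      rw [hmin, Polynomial.natDegree_X_pow_sub_C] at this
      exact this
    have hed : e < d := by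
      by_contra hcon
      rw [not_lt] at hcon
      have h1 : p ^ d ≤ p ^ e := Nat.pow_le_pow_right (Fact.out : p.Prime).pos hcon
      have h2 : d < p ^ d := Nat.lt_pow_self (Fact.out : p.Prime).one_lt
      omega
    have hbe : b ^ p ^ e = c := by
      have := minpoly.aeval M b
      rw [hmin] at this
      simpa [sub_eq_zero] using this
    have hac : a = ((c : K) ^ p ^ (d - e - 1)) ^ p := by
      rw [← hb, ← hbe, ← pow_mul, ← pow_mul, ← pow_succ, ← pow_add]
      congr 2
      omega
    have := adjoin_key (p := p) ht (⟨a, haB'⟩ : B) 1 (one_mem _)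
      (fun _ : Fin 1 => (c : K) ^ p ^ (d - e - 1)) (fun _ => pow_mem c.2 _) (fun _ => 1)
      (fun _ => by simp) (by simpa using hac)
    exact one_ne_zero this
  · intro ha n
    obtain ⟨z, hz⟩ := IsAlgClosed.exists_pow_nat_eq (⟨a, ha⟩ : k)
      (pow_pos (Fact.out : p.Prime).pos n)
    exact ⟨z, by simpa using congrArg Subtype.val hz⟩

/-- Consequence of `G2`: every field isomorphism `K ≃ L` maps `k` onto `l`. -/
theorem map_eq_of_ringEquiv {L : Type*} [Field L] [CharP L p] (l : Subfield L)
    [IsAlgClosed k] [IsAlgClosed l]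
    (hK : ∃ s : Finset K, Subfield.closure ((k : Set K) ∪ (s : Set K)) = ⊤)
    (hL : ∃ s : Finset L, Subfield.closure ((l : Set L) ∪ (s : Set L)) = ⊤)
    (α : K ≃+* L) : k.map α.toRingHom = l := by
  ext v
  rw [Subfield.mem_map, ← G2 (p := p) l hL]
  constructor
  · rintro ⟨a, ha, rfl⟩ n
    obtain ⟨b, hb⟩ := (G2 (p := p) k hK a).2 ha n
    exact ⟨α b, by simp [← hb]⟩
  · intro h
    refine ⟨α.symm v, (G2 (p := p) k hK _).1 fun n => ?_, by simp⟩
    obtain ⟨b, hb⟩ := h n
    exact ⟨α.symm b, by simp [← hb]⟩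

end Main

end Crest.Agent.Helper91.S0010
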