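import Crest.Agent.Helper19.S0010.ASBasic

/-!
# S0010, assembly track 1, block AS4 = A6 (helper91)

`alpha` is additive on all of `K`, and `s u ~ alpha u`.

The statements of the earlier blocks AS2 (helper19) and AS3 (helper69) that this block uses are
bundled in the structure `Prior`; the two theorems `prel_alpha_of` and `alpha_add_of` take
`NormLine p s` and `Prior p s`.  With the real AS2/AS3 lemmas (same statements as in `ASSpec`),
`Prior p s` is the anonymous constructor `prior_of …` spelled out at the end of this file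
(in a comment), and `NormLine.prel_alpha`, `NormLine.alpha_add` are one-line corollaries.
-/

set_option autoImplicit false

namespace Crest.Agent.Helper91.S0010.AS4

open Crest.Agent.Helper19.S0010

variable {K L : Type*} [Field K] [Field L]

/-- The statements of blocks AS2 and AS3 (see `ASSpec`) used by AS4. -/
structure Prior (p : ℕ) [Fact p.Prime] [CharP K p] [CharP L p] (s : K → L) : Prop where
  of_mem : ∀ c : K, c ∈ pPow K p → c ≠ 0 → PRel p (s c) 1
  exists_partner₂ : ∀ f f' : K, f ∉ pPow K p → s f' ∈ pAdj p (s f) →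
    ∃ g : K, g ≠ 0 ∧ PIndep p (s f) (s g) ∧ (f' ∉ pPow K p → f' ≠ 0 → PIndep p (s f') (s g))
  al_spec : ∀ f : K, f ∉ pPow K p →
    PRel p (s f) (al p s f) ∧ PRel p (s (f + 1)) (al p s f + 1)
  al_eq : ∀ f : K, f ∉ pPow K p → ∀ z : L, PRel p (s f) z → PRel p (s (f + 1)) (z + 1) →
    al p s f = z
  lamf_spec : ∀ f : K, f ∉ pPow K p → ∀ c : K, c ∈ pPow K p →
    lamf p s f c ∈ pPow L p ∧ PRel p (s (f + c)) (al p s f + lamf p s f c)
  line_add : ∀ u v : K, u ≠ 0 → v ≠ 0 → v / u ∉ pPow K p → ∀ u' v' : L,
    PRel p (s u) u' → PRel p (s v) v' → ∃ e ∈ pPow L p, e ≠ 0 ∧ PRel p (s (u + v)) (u' + e * v')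
  add_notMem_of_indep : ∀ f g : K, f ≠ 0 → g ≠ 0 → PIndep p (s f) (s g) → f + g ∉ pPow K p
  al_add_of_indep : ∀ f g : K, f ≠ 0 → g ≠ 0 → PIndep p (s f) (s g) →
    al p s (f + g) = al p s f + al p s g
  lamf_eq_tau : ∀ f : K, f ∉ pPow K p → ∀ c : K, c ∈ pPow K p → lamf p s f c = tau p s c
  al_add_const : ∀ f : K, f ∉ pPow K p → ∀ c : K, c ∈ pPow K p →
    al p s (f + c) = al p s f + tau p s c
  tau_mem : ∀ c : K, c ∈ pPow K p → tau p s c ∈ pPow L p
  tau_zero : tau p s 0 = 0
  tau_one : tau p s 1 = 1
  tau_add : ∀ c d : K, c ∈ pPow K p → d ∈ pPow K p → tau p s (c + d) = tau p s c + tau p s d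
  tau_eq_zero : ∀ c : K, c ∈ pPow K p → tau p s c = 0 → c = 0

variable {p : ℕ} [Fact p.Prime] [CharP K p] [CharP L p] {s : K → L}

/-- `s u ~ alpha u` for `u ≠ 0`. -/
theorem prel_alpha_of (h : NormLine p s) (H : Prior p s) {u : K} (hu : u ≠ 0) :
    PRel p (s u) (alpha p s u) := by
  by_cases huF : u ∈ pPow K p
  · rw [alpha_of_mem p s huF]
    have h1 : s u ∈ pPow L p := (h.pow_iff u hu).2 huF
    have h2 : s u ≠ 0 := h.ne_zero u hu
    have h3 : tau p s u ∈ pPow L p := H.tau_mem u huF
    have h4 : tau p s u ≠ 0 := fun h0 => hu (H.tau_eq_zero u huF h0)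
    exact prel_of_mem h1 h2 h3 h4
  · rw [alpha_of_notMem p s huF]
    exact (H.al_spec u huF).1

theorem tau_neg_one (H : Prior p s) : tau p s (-1) = -1 := by
  have h1 := H.tau_add (-1) 1 (neg_mem (one_mem _)) (one_mem _)
  rw [neg_add_cancel, H.tau_zero, H.tau_one] at h1
  linear_combination -h1

/-- `al (-u) = - al u` for `u ∉ K^p`. -/
theorem al_neg (h : NormLine p s) (H : Prior p s) {u : K} (hu : u ∉ pPow K p) :
    al p s (-u) = - al p s u := by
  have hu0 : u ≠ 0 := fun h0 => hu (h0 ▸ zero_mem _)
  have hnu : -u ∉ pPow K p := fun h' => hu (by simpa using neg_mem h')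
  have hm1 : (-1 : K) ∈ pPow K p := neg_mem (one_mem _)
  have hm1' : (-1 : L) ∈ pPow L p := neg_mem (one_mem _)
  have hneg1 : (-1 : K) ≠ 0 := neg_ne_zero.2 one_ne_zero
  have hsneg : ∀ w : K, w ≠ 0 → PRel p (s (-w)) (s w) := by
    intro w hw
    have h1 := h.mul (-1) w hneg1 hw
    rw [neg_one_mul] at h1
    have h2 := H.of_mem (-1) hm1 hneg1
    have h3 : PRel p (s (-1) * s w) (1 * s w) := h2.mul_right (s w)
    rw [one_mul] at h3
    exact h1.trans h3
  have hnegrel : ∀ z : L, PRel p (-z) z := fun z =>
    ⟨-1, hm1', neg_ne_zero.2 one_ne_zero, by ring⟩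
  apply H.al_eq (-u) hnu
  · exact ((hsneg u hu0).trans (H.al_spec u hu).1).trans (hnegrel _).symm
  · have hu1 : u + -1 ≠ 0 := by
      intro h0
      apply hu
      have : u = 1 := by linear_combination h0
      rw [this]; exact one_mem _
    have e1 : -u + 1 = -(u + -1) := by ring
    rw [e1]
    have h1 := hsneg (u + -1) hu1
    have h2 := (H.lamf_spec u hu (-1) hm1).2
    rw [H.lamf_eq_tau u hu (-1) hm1, tau_neg_one H] at h2
    have h3 : PRel p (-(al p s u + -1)) (al p s u + -1) := hnegrel _
    have e2 : -al p s u + 1 = -(al p s u + -1) := by ring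
    rw [e2]
    exact (h1.trans h2).trans h3.symm

/-- (A6) `alpha` is additive. -/
theorem alpha_add_of (h : NormLine p s) (H : Prior p s) (u v : K) :
    alpha p s (u + v) = alpha p s u + alpha p s v := by
  by_cases huF : u ∈ pPow K p
  · by_cases hvF : v ∈ pPow K p
    · rw [alpha_of_mem p s huF, alpha_of_mem p s hvF, alpha_of_mem p s (add_mem huF hvF)]
      exact H.tau_add u v huF hvF
    · have huv : u + v ∉ pPow K p := fun h' => hvF (by simpa using sub_mem h' huF)
      rw [alpha_of_mem p s huF, alpha_of_notMem p s hvF, alpha_of_notMem p s huv, add_comm u v,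
        H.al_add_const v hvF u huF, add_comm]
  · by_cases hvF : v ∈ pPow K p
    · have huv : u + v ∉ pPow K p := fun h' => huF (by simpa using sub_mem h' hvF)
      rw [alpha_of_notMem p s huF, alpha_of_mem p s hvF, alpha_of_notMem p s huv,
        H.al_add_const u huF v hvF]
    · have hu0 : u ≠ 0 := fun h0 => huF (h0 ▸ zero_mem _)
      have hv0 : v ≠ 0 := fun h0 => hvF (h0 ▸ zero_mem _)
      rw [alpha_of_notMem p s huF, alpha_of_notMem p s hvF]
      have hsu : s u ∉ pPow L p := fun h' => huF ((h.pow_iff u hu0).1 h')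
      by_cases hgen : s v ∈ pAdj p (s u)
      swap
      · have hI : PIndep p (s u) (s v) := ⟨hsu, hgen⟩
        rw [alpha_of_notMem p s (H.add_notMem_of_indep u v hu0 hv0 hI)]
        exact H.al_add_of_indep u v hu0 hv0 hI
      · by_cases huvF : u + v ∈ pPow K p
        · rw [alpha_of_mem p s huvF]
          have hnu : -u ∉ pPow K p := fun h' => huF (by simpa using neg_mem h')
          have e : v = -u + (u + v) := by ring
          have h1 := H.al_add_const (-u) hnu (u + v) huvF
          rw [← e, al_neg h H huF] at h1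
          rw [h1]; ring
        · rw [alpha_of_notMem p s huvF]
          obtain ⟨g, hg0, hug, hvg⟩ := H.exists_partner₂ u v huF hgen
          have hvg' : PIndep p (s v) (s g) := hvg hvF hv0
          have huv0 : u + v ≠ 0 := fun h0 => huvF (h0 ▸ zero_mem _)
          have hmem : s (u + v) ∈ pAdj p (s u) := by
            by_cases hq : v / u ∈ pPow K p
            · have h1 : (1 + v / u) ∈ pPow K p := add_mem (one_mem _) hq
              have h4 : u * (1 + v / u) = u + v := by field_simp
              have h2 : (1 + v / u) ≠ 0 := by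
                intro h0
                apply huv0
                rw [← h4, h0, mul_zero]
              have h3 := h.mul u (1 + v / u) hu0 h2
              rw [h4] at h3
              have h5 := H.of_mem (1 + v / u) h1 h2
              have h6 : PRel p (s (u + v)) (s u) := by
                have := h3.trans (h5.mul_left (s u))
                rwa [mul_one] at this
              exact (h6.mem_pAdj_iff (s u)).2 (self_mem_pAdj p (s u))
            · obtain ⟨e, he, he0, hrel⟩ :=
                H.line_add u v hu0 hv0 hq (s u) (s v) (PRel.refl _) (PRel.refl _)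
              refine (hrel.mem_pAdj_iff (s u)).2 ?_
              exact add_mem (self_mem_pAdj p (s u)) (mul_mem (pPow_le_pAdj p (s u) he) hgen)
          have hsuv : s (u + v) ∉ pPow L p := fun h' => huvF ((h.pow_iff (u + v) huv0).1 h')
          have hI1 : PIndep p (s (u + v)) (s g) := hug.of_mem_left hmem hsuv
          have hvg_notMem := H.add_notMem_of_indep v g hv0 hg0 hvg'
          have hvg0 : v + g ≠ 0 := fun h0 => hvg_notMem (h0 ▸ zero_mem _)
          have halvg := H.al_add_of_indep v g hv0 hg0 hvg'
          have hgF : g ∉ pPow K p := fun h' => hug.notMem_right ((h.pow_iff g hg0).2 h')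
          have hI2 : PIndep p (s u) (s (v + g)) := by
            have r1 : PRel p (s (v + g)) (al p s g + al p s v) := by
              have := (H.al_spec (v + g) hvg_notMem).1
              rwa [halvg, add_comm (al p s v) (al p s g)] at this
            have r2 : PRel p (al p s g) (s g) := (H.al_spec g hgF).1.symm
            have r3 : al p s v ∈ pAdj p (s u) :=
              ((H.al_spec v hvF).1.mem_pAdj_iff (s u)).1 hgen
            exact ((hug.congr_right r2).add_right r3).congr_right r1
          have e1 := H.al_add_of_indep (u + v) g huv0 hg0 hI1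
          have e2 := H.al_add_of_indep u (v + g) hu0 hvg0 hI2
          rw [← add_assoc, e1, halvg] at e2
          linear_combination e2

/-!
## Drop-in for the integration (tested against `ASSpec`)

With `X := ` the namespace where the real AS2/AS3 lemmas live (`Spec` while drafting):

```
theorem prior_of (h : NormLine p s) : Crest.Agent.Helper91.S0010.AS4.Prior p s where
  of_mem := fun _ hc hc0 => X.NormLine.of_mem h hc hc0
  exists_partner₂ := fun _ _ hf hf' => X.NormLine.exists_partner₂ h hf hf'
  al_spec := fun _ hf => X.NormLine.al_spec h hf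
  al_eq := fun _ hf _ h1 h2 => X.NormLine.al_eq h hf h1 h2
  lamf_spec := fun _ hf _ hc => X.NormLine.lamf_spec h hf hc
  line_add := fun _ _ hu hv huv _ _ hu' hv' => X.NormLine.line_add h hu hv huv hu' hv'
  add_notMem_of_indep := fun _ _ hf hg hfg => X.NormLine.add_notMem_of_indep h hf hg hfg
  al_add_of_indep := fun _ _ hf hg hfg => X.NormLine.al_add_of_indep h hf hg hfg
  lamf_eq_tau := fun _ hf _ hc => X.NormLine.lamf_eq_tau h hf hc
  al_add_const := fun _ hf _ hc => X.NormLine.al_add_const h hf hc
  tau_mem := fun _ hc => X.NormLine.tau_mem h hc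
  tau_zero := X.NormLine.tau_zero h
  tau_one := X.NormLine.tau_one h
  tau_add := fun _ _ hc hd => X.NormLine.tau_add h hc hd
  tau_eq_zero := fun _ hc h0 => X.NormLine.tau_eq_zero h hc h0

theorem NormLine.prel_alpha (h : NormLine p s) {u : K} (hu : u ≠ 0) :
    PRel p (s u) (alpha p s u) :=
  Crest.Agent.Helper91.S0010.AS4.prel_alpha_of h (prior_of h) hu

theorem NormLine.alpha_add (h : NormLine p s) (u v : K) :
    alpha p s (u + v) = alpha p s u + alpha p s v :=
  Crest.Agent.Helper91.S0010.AS4.alpha_add_of h (prior_of h) u v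
```
-/

end Crest.Agent.Helper91.S0010.AS4
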